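import Mathlib
import Crest.Prelude.Def_AsymptoticConvexity
import Crest.Prelude.Def_Diamond

/-!
# Package [E] of row 125 (helper4): countably branching diamond graphs

Generic theorem `diamond_distortion_sq`: if the maximum-based midpoint modulus of the norm of a
`RealBanach` space `E` is at least `√(1 + t²/4) - 1` for all `0 < t ≤ 1`, then every map of the
depth-`k` diamond graph into `E` of distortion at most `D` satisfies `1 + k/4 ≤ D²`.
-/

set_option autoImplicit false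

namespace Crest.Agent.Helper4

open Crest.AnalysisR

/-! ## Graph combinatorics -/

theorem diamondSrc_ne_tgt : ∀ (k : ℕ) (e : DiamondEdge k), diamondSrc k e ≠ diamondTgt k e
  | 0, _ => by simp [diamondSrc, diamondTgt]
  | _ + 1, (_, _, b) => by cases b <;> simp [diamondSrc, diamondTgt]

theorem diamond_adj_iff (k : ℕ) (u v : DiamondVertex k) :
    (diamondGraph k).Adj u v ↔
      ∃ e : DiamondEdge k, (diamondSrc k e = u ∧ diamondTgt k e = v) ∨
        (diamondSrc k e = v ∧ diamondTgt k e = u) := by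
  unfold diamondGraph
  rw [SimpleGraph.fromRel_adj]
  constructor
  · rintro ⟨-, ⟨e, h⟩ | ⟨e, h⟩⟩
    · exact ⟨e, Or.inl h⟩
    · exact ⟨e, Or.inr h⟩
  · rintro ⟨e, ⟨h1, h2⟩ | ⟨h1, h2⟩⟩
    · exact ⟨by rw [← h1, ← h2]; exact diamondSrc_ne_tgt k e, Or.inl ⟨e, h1, h2⟩⟩
    · exact ⟨by rw [← h1, ← h2]; exact (diamondSrc_ne_tgt k e).symm, Or.inr ⟨e, h1, h2⟩⟩

theorem diamond_adj_src_tgt (k : ℕ) (e : DiamondEdge k) :
    (diamondGraph k).Adj (diamondSrc k e) (diamondTgt k e) :=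
  (diamond_adj_iff k _ _).2 ⟨e, Or.inl ⟨rfl, rfl⟩⟩

/-- In `D (k+1)`, the middle vertex `(e, i)` is adjacent to the source of `e`. -/
theorem diamond_adj_inl_src_inr (k : ℕ) (e : DiamondEdge k) (i : ℕ) :
    (diamondGraph (k + 1)).Adj (Sum.inl (diamondSrc k e)) (Sum.inr (e, i)) := by
  have := diamond_adj_src_tgt (k + 1) (e, i, false)
  simpa [diamondSrc, diamondTgt] using this

/-- In `D (k+1)`, the middle vertex `(e, i)` is adjacent to the target of `e`. -/
theorem diamond_adj_inr_inl_tgt (k : ℕ) (e : DiamondEdge k) (i : ℕ) :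
    (diamondGraph (k + 1)).Adj (Sum.inr (e, i)) (Sum.inl (diamondTgt k e)) := by
  have := diamond_adj_src_tgt (k + 1) (e, i, true)
  simpa [diamondSrc, diamondTgt] using this

/-- Edges of `D (k+1)` join an old vertex and a middle vertex; description of all adjacencies. -/
theorem diamond_adj_succ (k : ℕ) (u v : DiamondVertex (k + 1)) (h : (diamondGraph (k + 1)).Adj u v) :
    ∃ (e : DiamondEdge k) (i : ℕ),
      (u = Sum.inl (diamondSrc k e) ∧ v = Sum.inr (e, i)) ∨
      (u = Sum.inr (e, i) ∧ v = Sum.inl (diamondTgt k e)) ∨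
      (v = Sum.inl (diamondSrc k e) ∧ u = Sum.inr (e, i)) ∨
      (v = Sum.inr (e, i) ∧ u = Sum.inl (diamondTgt k e)) := by
  rw [diamond_adj_iff] at h
  obtain ⟨⟨e, i, b⟩, h⟩ := h
  refine ⟨e, i, ?_⟩
  cases b
  · rcases h with ⟨h1, h2⟩ | ⟨h1, h2⟩
    · left; exact ⟨by simpa [diamondSrc] using h1.symm, by simpa [diamondTgt] using h2.symm⟩
    · right; right; left
      exact ⟨by simpa [diamondSrc] using h1.symm, by simpa [diamondTgt] using h2.symm⟩
  · rcases h with ⟨h1, h2⟩ | ⟨h1, h2⟩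
    · right; left; exact ⟨by simpa [diamondSrc] using h1.symm, by simpa [diamondTgt] using h2.symm⟩
    · right; right; right
      exact ⟨by simpa [diamondSrc] using h1.symm, by simpa [diamondTgt] using h2.symm⟩

instance diamondEdgeInhabited : ∀ k : ℕ, Inhabited (DiamondEdge k)
  | 0 => ⟨()⟩
  | k + 1 => ⟨((diamondEdgeInhabited k).default, 0, false)⟩

theorem diamond_reachable_inl (k : ℕ) {u v : DiamondVertex k}
    (h : (diamondGraph k).Reachable u v) :
    (diamondGraph (k + 1)).Reachable (Sum.inl u) (Sum.inl v) := by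
  obtain ⟨p⟩ := h
  induction p with
  | nil => exact SimpleGraph.Reachable.refl _
  | cons hadj _ ih =>
    refine SimpleGraph.Reachable.trans ?_ ih
    rw [diamond_adj_iff] at hadj
    obtain ⟨e, ⟨h1, h2⟩ | ⟨h1, h2⟩⟩ := hadj
    · rw [← h1, ← h2]
      exact (diamond_adj_inl_src_inr k e 0).reachable.trans (diamond_adj_inr_inl_tgt k e 0).reachable
    · rw [← h1, ← h2]
      exact ((diamond_adj_inl_src_inr k e 0).reachable.trans
        (diamond_adj_inr_inl_tgt k e 0).reachable).symm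

theorem diamond_connected : ∀ k : ℕ, (diamondGraph k).Connected
  | 0 => by
    have hadj : (diamondGraph 0).Adj false true := diamond_adj_src_tgt 0 ()
    have : Nonempty (DiamondVertex 0) := ⟨false⟩
    refine ⟨fun u v => ?_⟩
    have key : ∀ w : DiamondVertex 0, (diamondGraph 0).Reachable false w := by
      intro w
      cases w
      · exact SimpleGraph.Reachable.refl _
      · exact hadj.reachable
    exact (key u).symm.trans (key v)
  | k + 1 => by
    have hk := diamond_connected k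
    have : Nonempty (DiamondVertex (k + 1)) := ⟨Sum.inl (diamondSrc k default)⟩
    refine ⟨fun u v => ?_⟩
    have key : ∀ w : DiamondVertex (k + 1),
        (diamondGraph (k + 1)).Reachable (Sum.inl (diamondSrc k default)) w := by
      intro w
      rcases w with w | ⟨e, i⟩
      · exact diamond_reachable_inl k (hk.preconnected _ _)
      · exact (diamond_reachable_inl k (hk.preconnected _ _)).trans
          (diamond_adj_inl_src_inr k e i).reachable
    exact (key u).symm.trans (key v)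

/-- A function on the vertices that changes by at most one along edges is dominated by the walk
length. -/
theorem potential_le_walk_length {V : Type*} (G : SimpleGraph V) (h : V → ℕ)
    (hl : ∀ a b, G.Adj a b → h b ≤ h a + 1) {u v : V} (p : G.Walk u v) :
    h v ≤ h u + p.length := by
  induction p with
  | nil => simp
  | cons hadj p ih =>
    have := hl _ _ hadj
    rw [SimpleGraph.Walk.length_cons]
    omega

theorem diamond_dist_adj_le (k : ℕ) (u : DiamondVertex k) (e : DiamondEdge k) :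
    diamondDist k u (diamondTgt k e) ≤ diamondDist k u (diamondSrc k e) + 1 ∧
    diamondDist k u (diamondSrc k e) ≤ diamondDist k u (diamondTgt k e) + 1 := by
  have hc := diamond_connected k
  have h1 : (diamondGraph k).dist (diamondSrc k e) (diamondTgt k e) = 1 :=
    SimpleGraph.dist_eq_one_iff_adj.2 (diamond_adj_src_tgt k e)
  have h2 : (diamondGraph k).dist (diamondTgt k e) (diamondSrc k e) = 1 := by
    rw [SimpleGraph.dist_comm]; exact h1
  unfold diamondDist
  constructor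
  · have := hc.dist_triangle (u := u) (v := diamondSrc k e) (w := diamondTgt k e)
    omega
  · have := hc.dist_triangle (u := u) (v := diamondTgt k e) (w := diamondSrc k e)
    omega

/-- Distances between old vertices at least double in the next diamond. -/
theorem two_mul_diamondDist_le (k : ℕ) (u v : DiamondVertex k) :
    2 * diamondDist k u v ≤ diamondDist (k + 1) (Sum.inl u) (Sum.inl v) := by
  classical
  let h : DiamondVertex (k + 1) → ℕ := fun w =>
    match w with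
    | Sum.inl a => 2 * diamondDist k u a
    | Sum.inr (e, _) => diamondDist k u (diamondSrc k e) + diamondDist k u (diamondTgt k e)
  have hl : ∀ a b, (diamondGraph (k + 1)).Adj a b → h b ≤ h a + 1 := by
    intro a b hab
    obtain ⟨e, i, hc⟩ := diamond_adj_succ k a b hab
    have hd := diamond_dist_adj_le k u e
    rcases hc with ⟨rfl, rfl⟩ | ⟨rfl, rfl⟩ | ⟨rfl, rfl⟩ | ⟨rfl, rfl⟩ <;> simp only [h] <;> omega
  obtain ⟨p, hp⟩ := (diamond_connected (k + 1)).exists_walk_length_eq_dist (Sum.inl u) (Sum.inl v)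
  have := potential_le_walk_length (diamondGraph (k + 1)) h hl p
  have h0 : h (Sum.inl u) = 0 := by
    simp only [h, diamondDist, SimpleGraph.dist_self]
  have hv : h (Sum.inl v) = 2 * diamondDist k u v := rfl
  unfold diamondDist at hv ⊢
  rw [← hp]
  omega

theorem diamondDist_src_tgt (k : ℕ) (e : DiamondEdge k) :
    diamondDist k (diamondSrc k e) (diamondTgt k e) = 1 :=
  SimpleGraph.dist_eq_one_iff_adj.2 (diamond_adj_src_tgt k e)

theorem diamondDist_inl_src_inr (k : ℕ) (e : DiamondEdge k) (i : ℕ) :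
    diamondDist (k + 1) (Sum.inl (diamondSrc k e)) (Sum.inr (e, i)) = 1 :=
  SimpleGraph.dist_eq_one_iff_adj.2 (diamond_adj_inl_src_inr k e i)

theorem diamondDist_inr_inl_tgt (k : ℕ) (e : DiamondEdge k) (i : ℕ) :
    diamondDist (k + 1) (Sum.inr (e, i)) (Sum.inl (diamondTgt k e)) = 1 :=
  SimpleGraph.dist_eq_one_iff_adj.2 (diamond_adj_inr_inl_tgt k e i)

/-- Two distinct middle vertices are at distance at least two. -/
theorem two_le_diamondDist_inr_inr (k : ℕ) (p q : DiamondEdge k × ℕ) (hpq : p ≠ q) :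
    2 ≤ diamondDist (k + 1) (Sum.inr p) (Sum.inr q) := by
  have hne : (Sum.inr p : DiamondVertex (k + 1)) ≠ Sum.inr q := fun h => hpq (Sum.inr.inj h)
  have hna : ¬ (diamondGraph (k + 1)).Adj (Sum.inr p) (Sum.inr q) := by
    intro h
    obtain ⟨e, i, hc⟩ := diamond_adj_succ k _ _ h
    rcases hc with ⟨h1, _⟩ | ⟨_, h2⟩ | ⟨h1, _⟩ | ⟨_, h2⟩
    · cases h1
    · cases h2
    · cases h1
    · cases h2
  have := (diamond_connected (k + 1)).one_lt_dist_of_ne_of_not_adj hne hna
  unfold diamondDist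
  omega

/-- A map that moves by at most `L` along edges moves by at most `L * length` along walks. -/
theorem norm_sub_le_walk_length {V : Type*} (G : SimpleGraph V) {X : Type*}
    [SeminormedAddCommGroup X] (g : V → X) (L : ℝ)
    (hL : ∀ a b, G.Adj a b → ‖g a - g b‖ ≤ L) {u v : V} (p : G.Walk u v) :
    ‖g u - g v‖ ≤ L * p.length := by
  induction p with
  | nil => simp
  | @cons a b c hadj p ih =>
    have h1 := hL _ _ hadj
    have h2 : ‖g a - g c‖ ≤ ‖g a - g b‖ + ‖g b - g c‖ := by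
      have : g a - g c = (g a - g b) + (g b - g c) := by abel
      rw [this]; exact norm_add_le _ _
    rw [SimpleGraph.Walk.length_cons]
    push_cast
    linarith

/-! ## Banach space part -/

section Analysis

/-- Generic form of the max-midpoint modulus hypothesis (for `0 < t ≤ 1`). -/
def MaxMidProp (X : Type*) [NormedAddCommGroup X] [NormedSpace ℝ X] : Prop :=
  ∀ t : ℝ, 0 < t → t ≤ 1 → ∀ u : X, ‖u‖ = 1 → ∀ η : ℝ, 0 < η →
    ∃ S : Submodule ℝ X, IsClosed (S : Set X) ∧ FiniteDimensional ℝ (X ⧸ S) ∧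
      ∀ y ∈ S, ‖y‖ = 1 → Real.sqrt (1 + t ^ 2 / 4) - 1 - η ≤ max ‖u + t • y‖ ‖u - t • y‖ - 1

variable {X : Type*} [NormedAddCommGroup X] [NormedSpace ℝ X]

/-- Homogeneous form of the max-midpoint modulus. -/
theorem maxMid_hom (hX : MaxMidProp X) (x : X) (r η : ℝ) (hr : 0 < r) (hrx : r ≤ ‖x‖)
    (hη : 0 < η) :
    ∃ S : Submodule ℝ X, IsClosed (S : Set X) ∧ FiniteDimensional ℝ (X ⧸ S) ∧
      ∀ w ∈ S, r ≤ ‖w‖ → Real.sqrt (‖x‖ ^ 2 + r ^ 2 / 4) - η * ‖x‖ ≤ max ‖x + w‖ ‖x - w‖ := by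
  have hx : 0 < ‖x‖ := lt_of_lt_of_le hr hrx
  obtain ⟨S, hcl, hfd, hS⟩ := hX (r / ‖x‖) (div_pos hr hx) ((div_le_one hx).2 hrx) (‖x‖⁻¹ • x)
    (by rw [norm_smul, norm_inv, norm_norm, inv_mul_cancel₀ hx.ne']) η hη
  refine ⟨S, hcl, hfd, fun w hw hrw => ?_⟩
  have hw0 : 0 < ‖w‖ := lt_of_lt_of_le hr hrw
  have h := hS (‖w‖⁻¹ • w) (S.smul_mem _ hw)
    (by rw [norm_smul, norm_inv, norm_norm, inv_mul_cancel₀ hw0.ne'])
  set c := r / ‖w‖ with hc
  have hc0 : 0 < c := div_pos hr hw0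
  have hc1 : c ≤ 1 := (div_le_one hw0).2 hrw
  have hcoef : r / ‖x‖ * ‖w‖⁻¹ = ‖x‖⁻¹ * c := by
    rw [hc]; field_simp
  have e1 : ‖x‖⁻¹ • x + (r / ‖x‖) • ‖w‖⁻¹ • w = ‖x‖⁻¹ • (x + c • w) := by
    rw [smul_add, smul_smul, smul_smul, hcoef]
  have e2 : ‖x‖⁻¹ • x - (r / ‖x‖) • ‖w‖⁻¹ • w = ‖x‖⁻¹ • (x - c • w) := by
    rw [smul_sub, smul_smul, smul_smul, hcoef]
  set M := max ‖x + w‖ ‖x - w‖ with hM
  have hM1 : ‖x + w‖ ≤ M := le_max_left _ _
  have hM2 : ‖x - w‖ ≤ M := le_max_right _ _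
  have n1 : ‖x + c • w‖ ≤ M := by
    have e : x + c • w = ((1 + c) / 2) • (x + w) + ((1 - c) / 2) • (x - w) := by module
    rw [e]
    calc ‖((1 + c) / 2) • (x + w) + ((1 - c) / 2) • (x - w)‖
        ≤ ‖((1 + c) / 2) • (x + w)‖ + ‖((1 - c) / 2) • (x - w)‖ := norm_add_le _ _
      _ = (1 + c) / 2 * ‖x + w‖ + (1 - c) / 2 * ‖x - w‖ := by
          rw [norm_smul, norm_smul, Real.norm_of_nonneg (by linarith),
            Real.norm_of_nonneg (by linarith)]
      _ ≤ (1 + c) / 2 * M + (1 - c) / 2 * M := by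
          have a1 : 0 ≤ (1 + c) / 2 := by linarith
          have a2 : 0 ≤ (1 - c) / 2 := by linarith
          nlinarith [mul_le_mul_of_nonneg_left hM1 a1, mul_le_mul_of_nonneg_left hM2 a2]
      _ = M := by ring
  have n2 : ‖x - c • w‖ ≤ M := by
    have e : x - c • w = ((1 - c) / 2) • (x + w) + ((1 + c) / 2) • (x - w) := by module
    rw [e]
    calc ‖((1 - c) / 2) • (x + w) + ((1 + c) / 2) • (x - w)‖
        ≤ ‖((1 - c) / 2) • (x + w)‖ + ‖((1 + c) / 2) • (x - w)‖ := norm_add_le _ _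
      _ = (1 - c) / 2 * ‖x + w‖ + (1 + c) / 2 * ‖x - w‖ := by
          rw [norm_smul, norm_smul, Real.norm_of_nonneg (by linarith),
            Real.norm_of_nonneg (by linarith)]
      _ ≤ (1 - c) / 2 * M + (1 + c) / 2 * M := by
          have a1 : 0 ≤ (1 + c) / 2 := by linarith
          have a2 : 0 ≤ (1 - c) / 2 := by linarith
          nlinarith [mul_le_mul_of_nonneg_left hM1 a2, mul_le_mul_of_nonneg_left hM2 a1]
      _ = M := by ring
  rw [e1, e2, norm_smul, norm_smul, norm_inv, norm_norm] at h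
  have hinv : 0 ≤ ‖x‖⁻¹ := inv_nonneg.2 hx.le
  have h3 : max (‖x‖⁻¹ * ‖x + c • w‖) (‖x‖⁻¹ * ‖x - c • w‖) ≤ ‖x‖⁻¹ * M :=
    max_le (mul_le_mul_of_nonneg_left n1 hinv) (mul_le_mul_of_nonneg_left n2 hinv)
  have h4 : Real.sqrt (‖x‖ ^ 2 + r ^ 2 / 4) = ‖x‖ * Real.sqrt (1 + (r / ‖x‖) ^ 2 / 4) := by
    have : ‖x‖ ^ 2 + r ^ 2 / 4 = ‖x‖ ^ 2 * (1 + (r / ‖x‖) ^ 2 / 4) := by
      field_simp
    rw [this, Real.sqrt_mul (sq_nonneg _), Real.sqrt_sq hx.le]
  have h5 : Real.sqrt (1 + (r / ‖x‖) ^ 2 / 4) - η ≤ ‖x‖⁻¹ * M := by linarith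
  have h6 := mul_le_mul_of_nonneg_left h5 hx.le
  rw [← mul_assoc, mul_inv_cancel₀ hx.ne', one_mul] at h6
  rw [h4]
  linarith

/-- Pigeonhole in a finite-dimensional quotient: a bounded sequence has two terms whose
difference is close to the subspace. -/
theorem exists_close_pair (S : Submodule ℝ X) (hcl : IsClosed (S : Set X))
    (hfd : FiniteDimensional ℝ (X ⧸ S)) (z : ℕ → X) (R : ℝ) (hz : ∀ i, ‖z i‖ ≤ R) (δ : ℝ)
    (hδ : 0 < δ) : ∃ i j, i ≠ j ∧ ∃ y ∈ S, ‖z i - z j - y‖ < δ := by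
  haveI := hcl
  haveI := hfd
  let q : ℕ → X ⧸ S := fun i => Submodule.Quotient.mk (z i)
  have hq : ∀ i, q i ∈ Metric.closedBall (0 : X ⧸ S) R := fun i => by
    rw [mem_closedBall_zero_iff]
    exact (Submodule.Quotient.norm_mk_le S (z i)).trans (hz i)
  obtain ⟨a, -, φ, hφ, hlim⟩ := (isCompact_closedBall (0 : X ⧸ S) R).tendsto_subseq hq
  have hc : CauchySeq (q ∘ φ) := hlim.cauchySeq
  obtain ⟨N, hN⟩ := Metric.cauchySeq_iff.1 hc (δ / 2) (by positivity)
  have h := hN N le_rfl (N + 1) (Nat.le_succ N)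
  refine ⟨φ N, φ (N + 1), (hφ (Nat.lt_succ_self N)).ne, ?_⟩
  rw [dist_eq_norm] at h
  have hmk : q (φ N) - q (φ (N + 1)) = Submodule.Quotient.mk (z (φ N) - z (φ (N + 1))) :=
    (Submodule.Quotient.mk_sub S).symm
  obtain ⟨m, hm, hmn⟩ := Submodule.Quotient.norm_mk_lt (q (φ N) - q (φ (N + 1)))
    (show 0 < δ / 2 by positivity)
  refine ⟨z (φ N) - z (φ (N + 1)) - m, ?_, ?_⟩
  · rw [← Submodule.Quotient.mk_eq_zero S, Submodule.Quotient.mk_sub, hm, ← hmk, sub_self]
  · have : z (φ N) - z (φ (N + 1)) - (z (φ N) - z (φ (N + 1)) - m) = m := by abel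
    rw [this]
    simp only [Function.comp_apply] at h
    linarith

/-- The one-edge estimate. -/
theorem edge_estimate (hX : MaxMidProp X) (x : X) (z : ℕ → X) (s D : ℝ) (hs : 0 < s)
    (hx : s ≤ ‖x‖) (h1 : ∀ i, ‖x + z i‖ ≤ D * s) (h2 : ∀ i, ‖x - z i‖ ≤ D * s)
    (h3 : ∀ i j, i ≠ j → 2 * s ≤ ‖z i - z j‖) :
    ‖x‖ ^ 2 + s ^ 2 / 4 ≤ (D * s) ^ 2 := by
  have key : ∀ θ : ℝ, 0 < θ → θ < 1 →
      Real.sqrt (‖x‖ ^ 2 + ((1 - θ) * s) ^ 2 / 4) ≤ (D + θ) * s + θ * ‖x‖ := by
    intro θ hθ0 hθ1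
    have hr : 0 < (1 - θ) * s := mul_pos (by linarith) hs
    have hrx : (1 - θ) * s ≤ ‖x‖ := by nlinarith
    obtain ⟨S, hcl, hfd, hS⟩ := maxMid_hom hX x ((1 - θ) * s) θ hr hrx hθ0
    have hzb : ∀ i, ‖z i‖ ≤ D * s + ‖x‖ := fun i => by
      have e : z i = (x + z i) - x := by abel
      calc ‖z i‖ = ‖(x + z i) - x‖ := congrArg _ e
        _ ≤ ‖x + z i‖ + ‖x‖ := norm_sub_le _ _
        _ ≤ D * s + ‖x‖ := by linarith [h1 i]
    obtain ⟨i, j, hij, y, hy, hyn⟩ :=
      exists_close_pair S hcl hfd z _ hzb (2 * θ * s) (by positivity)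
    set w := (1 / 2 : ℝ) • y with hw
    have hwS : w ∈ S := S.smul_mem _ hy
    have hd : ‖(1 / 2 : ℝ) • (z i - z j) - w‖ < θ * s := by
      rw [hw, ← smul_sub, norm_smul]
      norm_num
      linarith
    have hwn : (1 - θ) * s ≤ ‖w‖ := by
      have h4 := h3 i j hij
      have h5 : ‖(1 / 2 : ℝ) • (z i - z j)‖ = ‖z i - z j‖ / 2 := by
        rw [norm_smul]; norm_num; ring
      have h6 : ‖(1 / 2 : ℝ) • (z i - z j)‖ ≤ ‖(1 / 2 : ℝ) • (z i - z j) - w‖ + ‖w‖ := by
        have := norm_add_le ((1 / 2 : ℝ) • (z i - z j) - w) w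
        rwa [sub_add_cancel] at this
      linarith
    have hp : ‖x + w‖ ≤ (D + θ) * s := by
      have e : x + w = (1 / 2 : ℝ) • (x + z i) + (1 / 2 : ℝ) • (x - z j)
          - ((1 / 2 : ℝ) • (z i - z j) - w) := by module
      rw [e]
      calc _ ≤ ‖(1 / 2 : ℝ) • (x + z i) + (1 / 2 : ℝ) • (x - z j)‖
            + ‖(1 / 2 : ℝ) • (z i - z j) - w‖ := norm_sub_le _ _
        _ ≤ ‖(1 / 2 : ℝ) • (x + z i)‖ + ‖(1 / 2 : ℝ) • (x - z j)‖
            + ‖(1 / 2 : ℝ) • (z i - z j) - w‖ := by gcongr; exact norm_add_le _ _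
        _ = 1 / 2 * ‖x + z i‖ + 1 / 2 * ‖x - z j‖ + ‖(1 / 2 : ℝ) • (z i - z j) - w‖ := by
            rw [norm_smul, norm_smul]; norm_num
        _ ≤ (D + θ) * s := by linarith [h1 i, h2 j]
    have hm : ‖x - w‖ ≤ (D + θ) * s := by
      have e : x - w = (1 / 2 : ℝ) • (x - z i) + (1 / 2 : ℝ) • (x + z j)
          + ((1 / 2 : ℝ) • (z i - z j) - w) := by module
      rw [e]
      calc _ ≤ ‖(1 / 2 : ℝ) • (x - z i) + (1 / 2 : ℝ) • (x + z j)‖
            + ‖(1 / 2 : ℝ) • (z i - z j) - w‖ := norm_add_le _ _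
        _ ≤ ‖(1 / 2 : ℝ) • (x - z i)‖ + ‖(1 / 2 : ℝ) • (x + z j)‖
            + ‖(1 / 2 : ℝ) • (z i - z j) - w‖ := by gcongr; exact norm_add_le _ _
        _ = 1 / 2 * ‖x - z i‖ + 1 / 2 * ‖x + z j‖ + ‖(1 / 2 : ℝ) • (z i - z j) - w‖ := by
            rw [norm_smul, norm_smul]; norm_num
        _ ≤ (D + θ) * s := by linarith [h2 i, h1 j]
    have h7 := hS w hwS hwn
    linarith [max_le hp hm]
  -- let θ → 0
  have hcont : Continuous (fun θ : ℝ =>
      (D + θ) * s + θ * ‖x‖ - Real.sqrt (‖x‖ ^ 2 + ((1 - θ) * s) ^ 2 / 4)) := by fun_prop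
  have h0 : (0 : ℝ) ∈ closure (Set.Ioo (0 : ℝ) 1) := by
    rw [closure_Ioo (by norm_num)]; simp
  have hsub : Set.Ioo (0 : ℝ) 1 ⊆ {θ : ℝ | 0 ≤
      (D + θ) * s + θ * ‖x‖ - Real.sqrt (‖x‖ ^ 2 + ((1 - θ) * s) ^ 2 / 4)} :=
    fun θ hθ => sub_nonneg.2 (key θ hθ.1 hθ.2)
  have hlim := closure_minimal hsub (isClosed_le continuous_const hcont) h0
  simp only [Set.mem_setOf_eq, add_zero, zero_mul, sub_zero, one_mul] at hlim
  have hle : Real.sqrt (‖x‖ ^ 2 + s ^ 2 / 4) ≤ D * s := by linarith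
  have hsq := Real.sq_sqrt (show 0 ≤ ‖x‖ ^ 2 + s ^ 2 / 4 by positivity)
  calc ‖x‖ ^ 2 + s ^ 2 / 4 = Real.sqrt (‖x‖ ^ 2 + s ^ 2 / 4) ^ 2 := hsq.symm
    _ ≤ (D * s) ^ 2 := pow_le_pow_left₀ (Real.sqrt_nonneg _) hle 2

/-- Generic diamond distortion bound. -/
theorem diamond_distortion_generic (hX : MaxMidProp X) :
    ∀ (k : ℕ) (f : DiamondVertex k → X) (D s : ℝ), 0 < s →
      (∀ u v : DiamondVertex k, s * (diamondDist k u v : ℝ) ≤ ‖f u - f v‖ ∧
        ‖f u - f v‖ ≤ D * s * (diamondDist k u v : ℝ)) →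
      1 + (k : ℝ) / 4 ≤ D ^ 2 := by
  intro k
  induction k with
  | zero =>
    intro f D s hs h
    have h1 : diamondDist 0 (diamondSrc 0 ()) (diamondTgt 0 ()) = 1 := diamondDist_src_tgt 0 ()
    obtain ⟨ha, hb⟩ := h (diamondSrc 0 ()) (diamondTgt 0 ())
    rw [h1] at ha hb
    have hD : 1 ≤ D := by
      by_contra hlt
      push_neg at hlt
      have : D * s < 1 * s := mul_lt_mul_of_pos_right hlt hs
      simp only [Nat.cast_one, mul_one] at ha hb
      linarith
    simp only [Nat.cast_zero, zero_div, add_zero]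
    nlinarith
  | succ k ih =>
    intro f D s hs h
    have hedge : ∀ e : DiamondEdge k,
        s ≤ ‖(1 / 2 : ℝ) • (f (Sum.inl (diamondSrc k e)) - f (Sum.inl (diamondTgt k e)))‖ ∧
        ‖(1 / 2 : ℝ) • (f (Sum.inl (diamondSrc k e)) - f (Sum.inl (diamondTgt k e)))‖ ^ 2
          + s ^ 2 / 4 ≤ (D * s) ^ 2 := by
      intro e
      set a := f (Sum.inl (diamondSrc k e)) with ha
      set b := f (Sum.inl (diamondTgt k e)) with hb
      have hx : s ≤ ‖(1 / 2 : ℝ) • (a - b)‖ := by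
        have h1 := (h (Sum.inl (diamondSrc k e)) (Sum.inl (diamondTgt k e))).1
        have h2 := two_mul_diamondDist_le k (diamondSrc k e) (diamondTgt k e)
        rw [diamondDist_src_tgt] at h2
        have h3 : (2 : ℝ) ≤
            (diamondDist (k + 1) (Sum.inl (diamondSrc k e)) (Sum.inl (diamondTgt k e)) : ℝ) := by
          exact_mod_cast h2
        rw [norm_smul]
        norm_num
        nlinarith
      refine ⟨hx, ?_⟩
      refine edge_estimate hX _ (fun i => f (Sum.inr (e, i)) - (1 / 2 : ℝ) • (a + b)) s D hs hx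
        ?_ ?_ ?_
      · intro i
        have e1 : (1 / 2 : ℝ) • (a - b) + (f (Sum.inr (e, i)) - (1 / 2 : ℝ) • (a + b))
            = f (Sum.inr (e, i)) - b := by module
        rw [e1]
        have := (h (Sum.inr (e, i)) (Sum.inl (diamondTgt k e))).2
        rw [diamondDist_inr_inl_tgt] at this
        simpa using this
      · intro i
        have e1 : (1 / 2 : ℝ) • (a - b) - (f (Sum.inr (e, i)) - (1 / 2 : ℝ) • (a + b))
            = a - f (Sum.inr (e, i)) := by module
        rw [e1]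
        have := (h (Sum.inl (diamondSrc k e)) (Sum.inr (e, i))).2
        rw [diamondDist_inl_src_inr] at this
        simpa using this
      · intro i j hij
        have e1 : (f (Sum.inr (e, i)) - (1 / 2 : ℝ) • (a + b))
            - (f (Sum.inr (e, j)) - (1 / 2 : ℝ) • (a + b))
            = f (Sum.inr (e, i)) - f (Sum.inr (e, j)) := by abel
        rw [e1]
        have h1 := (h (Sum.inr (e, i)) (Sum.inr (e, j))).1
        have h2 := two_le_diamondDist_inr_inr k (e, i) (e, j) (by simpa using hij)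
        have h3 : (2 : ℝ) ≤ (diamondDist (k + 1) (Sum.inr (e, i)) (Sum.inr (e, j)) : ℝ) := by
          exact_mod_cast h2
        nlinarith
    have hD : 5 / 4 ≤ D ^ 2 := by
      obtain ⟨h1, h2⟩ := hedge default
      have h4 : s ^ 2 ≤ ‖(1 / 2 : ℝ) • (f (Sum.inl (diamondSrc k default))
          - f (Sum.inl (diamondTgt k default)))‖ ^ 2 := pow_le_pow_left₀ hs.le h1 2
      have h5 : 0 < s ^ 2 := by positivity
      by_contra hlt
      push_neg at hlt
      nlinarith
    set D' := Real.sqrt (D ^ 2 - 1 / 4) with hD'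
    have hD'0 : 0 ≤ D' := Real.sqrt_nonneg _
    have hD'sq : D' ^ 2 = D ^ 2 - 1 / 4 := Real.sq_sqrt (by linarith)
    have hmain := ih (fun u => f (Sum.inl u)) D' (2 * s) (by positivity) ?_
    · rw [hD'sq] at hmain
      push_cast
      linarith
    intro u v
    constructor
    · have h1 := (h (Sum.inl u) (Sum.inl v)).1
      have h2 := two_mul_diamondDist_le k u v
      have h3 : (2 : ℝ) * (diamondDist k u v : ℝ) ≤
          (diamondDist (k + 1) (Sum.inl u) (Sum.inl v) : ℝ) := by exact_mod_cast h2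
      nlinarith
    · obtain ⟨p, hp⟩ := (diamond_connected k).exists_walk_length_eq_dist u v
      have hw := norm_sub_le_walk_length (diamondGraph k) (fun u => f (Sum.inl u)) (D' * (2 * s))
        ?_ p
      · rw [hp] at hw
        exact hw
      have hedge' : ∀ e : DiamondEdge k,
          ‖f (Sum.inl (diamondSrc k e)) - f (Sum.inl (diamondTgt k e))‖ ≤ D' * (2 * s) := by
        intro e
        obtain ⟨-, h2⟩ := hedge e
        rw [norm_smul] at h2
        norm_num at h2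
        set n := ‖f (Sum.inl (diamondSrc k e)) - f (Sum.inl (diamondTgt k e))‖ with hn
        have hn0 : 0 ≤ n := norm_nonneg _
        have h4 : (n / 2) ^ 2 ≤ (D' * s) ^ 2 := by
          rw [mul_pow, hD'sq]
          nlinarith
        have h5 : n / 2 ≤ D' * s :=
          (pow_le_pow_iff_left₀ (by positivity) (by positivity) two_ne_zero).1 h4
        linarith
      intro a b hab
      rw [diamond_adj_iff] at hab
      obtain ⟨e, ⟨rfl, rfl⟩ | ⟨rfl, rfl⟩⟩ := hab
      · exact hedge' e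
      · rw [norm_sub_rev]; exact hedge' e

end Analysis

/-- **Package [E]**: diamond distortion bound from the max-midpoint modulus. -/
theorem diamond_distortion_sq (E : RealBanach)
    (hmax : ∀ t : ℝ, 0 < t → t ≤ 1 →
      E.MaxMidpointModulusGE E.norm t (Real.sqrt (1 + t ^ 2 / 4) - 1)) :
    ∀ (k : ℕ) (f : DiamondVertex k → E.X) (D : ℝ),
      E.HasDistortionLE k f D → 1 + (k : ℝ) / 4 ≤ D ^ 2 := by
  letI := E.normed
  letI := E.space
  have hX : MaxMidProp E.X := by
    intro t ht0 ht1 u hu η hη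
    obtain ⟨F, ⟨S, rfl, hcl, hfd⟩, hF⟩ := hmax t ht0 ht1 u hu η hη
    exact ⟨S, hcl, hfd, fun y hy hy1 => hF y hy hy1⟩
  intro k f D hf
  obtain ⟨s, hs, h⟩ := hf
  exact diamond_distortion_generic hX k f D s hs h

end Crest.Agent.Helper4
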