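import Mathlib
import Crest.Agent.Helper30.AUCBasic
import Crest.Agent.Helper30.UMI

/-!
# Package [G5] of row 125 (helper4): the unnormalised midpoint inequality passes to ℓ²-sums
-/

set_option autoImplicit false

namespace Crest.Agent.Helper4

open Crest.Agent.Helper30
open scoped ENNReal

section LpTwo

variable (G : ℕ → Type) [∀ n, NormedAddCommGroup (G n)]

theorem two_toReal_pos : 0 < (2 : ℝ≥0∞).toReal := by norm_num

theorem memℓp_nrm (f : lp G 2) : Memℓp (fun n => ‖f n‖) 2 := by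
  have h := lp.memℓp f
  rw [memℓp_gen_iff two_toReal_pos] at h ⊢
  simpa using h

/-- The sequence of norms of an element of the ℓ²-sum, as an element of `ℓ²(ℝ)`. -/
noncomputable def nrm (f : lp G 2) : lp (fun _ : ℕ => ℝ) 2 :=
  ⟨fun n => ‖f n‖, memℓp_nrm G f⟩

theorem nrm_apply (f : lp G 2) (n : ℕ) : nrm G f n = ‖f n‖ := rfl

theorem norm_nrm (f : lp G 2) : ‖nrm G f‖ = ‖f‖ := by
  rw [lp.norm_eq_tsum_rpow two_toReal_pos, lp.norm_eq_tsum_rpow two_toReal_pos]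
  simp [nrm_apply]

end LpTwo

theorem hasSum_sq_lp {H : ℕ → Type} [∀ n, NormedAddCommGroup (H n)] (f : lp H 2) :
    HasSum (fun n => ‖f n‖ ^ 2) (‖f‖ ^ 2) := by
  have h := lp.hasSum_norm two_toReal_pos f
  simpa using h

theorem sum_single_apply (n₀ : ℕ) (a : ℕ → ℝ) (n : ℕ) :
    (∑ i ∈ Finset.range n₀, lp.single 2 i (a i) : lp (fun _ : ℕ => ℝ) 2) n
      = if n < n₀ then a n else 0 := by
  rw [lp.coeFn_sum, Finset.sum_apply]
  simp only [lp.single_apply]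
  split_ifs with h
  · rw [Finset.sum_eq_single n]
    · simp
    · intro b _ hb
      simp [Ne.symm hb]
    · intro hn
      exact absurd (Finset.mem_range.2 h) hn
  · apply Finset.sum_eq_zero
    intro b hb
    have : n ≠ b := by
      rintro rfl
      exact h (Finset.mem_range.1 hb)
    simp [this]

/-- **Package [G5]**: the unnormalised midpoint inequality passes to ℓ²-sums. -/
theorem umi_lp_two (G : ℕ → Type) [∀ n, NormedAddCommGroup (G n)] [∀ n, NormedSpace ℝ (G n)]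
    (h : ∀ n, UMI (G n)) : UMI (lp G 2) := by
  intro x ε hε
  -- choose the cut-off `n₀`
  have hp2 : (2 : ℝ≥0∞) ≠ ⊤ := by norm_num
  have hsum := lp.hasSum_single (p := 2) hp2 (nrm G x)
  have htend := hsum.tendsto_sum_nat
  obtain ⟨n₀, hn₀⟩ : ∃ n₀ : ℕ,
      ‖nrm G x - ∑ i ∈ Finset.range n₀, lp.single 2 i (nrm G x i)‖ < ε / 4 := by
    obtain ⟨N, hN⟩ := (Metric.tendsto_atTop.1 htend) (ε / 4) (by positivity)
    refine ⟨N, ?_⟩
    rw [← dist_eq_norm, dist_comm]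
    exact hN N le_rfl
  set ε' : ℝ := ε / (2 * (n₀ + 1)) with hε'
  have hn₀pos : (0 : ℝ) < (n₀ : ℝ) + 1 := by positivity
  have hε'pos : 0 < ε' := by positivity
  choose F hFcof hF using fun n => h n (x n) ε' hε'pos
  refine ⟨{y | ∀ n ∈ Finset.range n₀, y ∈ (lp.evalCLM ℝ G 2 n) ⁻¹' F n}, ?_, ?_⟩
  · exact isCofSet_biInter (Finset.range n₀) _
      (fun n _ => (hFcof n).preimage (lp.evalCLM ℝ G 2 n))
  · intro y hy
    have hyF : ∀ n < n₀, y n ∈ F n := fun n hn => hy n (Finset.mem_range.2 hn)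
    set T : lp (fun _ : ℕ => ℝ) 2 :=
      nrm G x - ∑ i ∈ Finset.range n₀, lp.single 2 i (nrm G x i) with hT
    set D₁ : lp (fun _ : ℕ => ℝ) 2 := ∑ i ∈ Finset.range n₀, lp.single 2 i ε' with hD₁
    set B : lp (fun _ : ℕ => ℝ) 2 := nrm G (x + y) + nrm G (x - y) + D₁ + (2 : ℝ) • T with hB
    -- norm bound of `B`
    have hD₁n : ‖D₁‖ ≤ ε / 2 := by
      calc ‖D₁‖ ≤ ∑ i ∈ Finset.range n₀, ‖lp.single (E := fun _ : ℕ => ℝ) 2 i ε'‖ :=
            norm_sum_le _ _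
        _ = ∑ i ∈ Finset.range n₀, ε' := by
            refine Finset.sum_congr rfl fun i _ => ?_
            rw [lp.norm_single (by norm_num), Real.norm_eq_abs, abs_of_pos hε'pos]
        _ = n₀ * ε' := by simp
        _ ≤ ε / 2 := by
            rw [hε']
            have : (n₀ : ℝ) * (ε / (2 * (n₀ + 1))) = (n₀ / (n₀ + 1)) * (ε / 2) := by
              field_simp
            rw [this]
            have h1 : (n₀ : ℝ) / (n₀ + 1) ≤ 1 := by
              rw [div_le_one hn₀pos]; linarith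
            nlinarith
    have hTn : ‖(2 : ℝ) • T‖ ≤ ε / 2 := by
      rw [norm_smul, Real.norm_eq_abs, abs_of_pos (by norm_num : (0 : ℝ) < 2)]
      linarith
    have hBn : ‖B‖ ≤ ‖x + y‖ + ‖x - y‖ + ε := by
      calc ‖B‖ ≤ ‖nrm G (x + y) + nrm G (x - y) + D₁‖ + ‖(2 : ℝ) • T‖ := norm_add_le _ _
        _ ≤ ‖nrm G (x + y) + nrm G (x - y)‖ + ‖D₁‖ + ‖(2 : ℝ) • T‖ := by
            gcongr; exact norm_add_le _ _
        _ ≤ ‖nrm G (x + y)‖ + ‖nrm G (x - y)‖ + ‖D₁‖ + ‖(2 : ℝ) • T‖ := by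
            gcongr; exact norm_add_le _ _
        _ ≤ ‖x + y‖ + ‖x - y‖ + ε := by
            rw [norm_nrm, norm_nrm]; linarith
    -- pointwise values of `B`
    have hBval : ∀ n, B n = ‖x n + y n‖ + ‖x n - y n‖ + (if n < n₀ then ε' else 0)
        + 2 * (‖x n‖ - if n < n₀ then ‖x n‖ else 0) := by
      intro n
      rw [hB, lp.coeFn_add, Pi.add_apply, lp.coeFn_add, Pi.add_apply, lp.coeFn_add,
        Pi.add_apply, lp.coeFn_smul, Pi.smul_apply, hT, lp.coeFn_sub, Pi.sub_apply, hD₁,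
        sum_single_apply, sum_single_apply]
      simp only [nrm_apply, smul_eq_mul]
      rfl
    have hpt : ∀ n, 2 * Real.sqrt (‖x n‖ ^ 2 + ‖y n‖ ^ 2 / 4) ≤ B n := by
      intro n
      rw [hBval]
      by_cases hn : n < n₀
      · have := hF n (y n) (hyF n hn)
        simp only [hn, if_true]
        linarith
      · simp only [hn, if_false]
        have h1 : Real.sqrt (‖x n‖ ^ 2 + ‖y n‖ ^ 2 / 4) ≤ ‖x n‖ + ‖y n‖ / 2 := by
          rw [show ‖x n‖ + ‖y n‖ / 2 = Real.sqrt ((‖x n‖ + ‖y n‖ / 2) ^ 2) from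
            (Real.sqrt_sq (by positivity)).symm]
          apply Real.sqrt_le_sqrt
          nlinarith [norm_nonneg (x n), norm_nonneg (y n)]
        have h2 : 2 * ‖y n‖ ≤ ‖x n + y n‖ + ‖x n - y n‖ := by
          have e : (2 : ℝ) • y n = (x n + y n) - (x n - y n) := by
            rw [two_smul]; abel
          have h3 : ‖(2 : ℝ) • y n‖ = 2 * ‖y n‖ := by
            rw [norm_smul, Real.norm_eq_abs, abs_of_pos (by norm_num : (0 : ℝ) < 2)]
          rw [← h3, e]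
          exact norm_sub_le _ _
        linarith [norm_nonneg (y n)]
    -- compare the square sums
    have hsumc : HasSum (fun n => (2 * Real.sqrt (‖x n‖ ^ 2 + ‖y n‖ ^ 2 / 4)) ^ 2)
        (4 * ‖x‖ ^ 2 + ‖y‖ ^ 2) := by
      have h1 := ((hasSum_sq_lp x).mul_left 4).add (hasSum_sq_lp y)
      have h2 : (fun n => (2 * Real.sqrt (‖x n‖ ^ 2 + ‖y n‖ ^ 2 / 4)) ^ 2)
          = fun n => 4 * ‖x n‖ ^ 2 + ‖y n‖ ^ 2 := by
        funext n
        rw [mul_pow, Real.sq_sqrt (by positivity)]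
        ring
      rw [h2]
      exact h1
    have hsumB : HasSum (fun n => ‖B n‖ ^ 2) (‖B‖ ^ 2) := hasSum_sq_lp B
    have hle : 4 * ‖x‖ ^ 2 + ‖y‖ ^ 2 ≤ ‖B‖ ^ 2 := by
      refine hasSum_le (fun n => ?_) hsumc hsumB
      have h0 : 0 ≤ 2 * Real.sqrt (‖x n‖ ^ 2 + ‖y n‖ ^ 2 / 4) := by positivity
      have h1 : 2 * Real.sqrt (‖x n‖ ^ 2 + ‖y n‖ ^ 2 / 4) ≤ ‖B n‖ :=
        (hpt n).trans (Real.le_norm_self _)
      exact pow_le_pow_left₀ h0 h1 2
    have hfin : 2 * Real.sqrt (‖x‖ ^ 2 + ‖y‖ ^ 2 / 4) ≤ ‖B‖ := by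
      have h4 : (2 * Real.sqrt (‖x‖ ^ 2 + ‖y‖ ^ 2 / 4)) ^ 2 = 4 * ‖x‖ ^ 2 + ‖y‖ ^ 2 := by
        rw [mul_pow, Real.sq_sqrt (by positivity)]
        ring
      have h5 : (2 * Real.sqrt (‖x‖ ^ 2 + ‖y‖ ^ 2 / 4)) ^ 2 ≤ ‖B‖ ^ 2 := by
        rw [h4]; exact hle
      exact (pow_le_pow_iff_left₀ (by positivity) (norm_nonneg _) two_ne_zero).1 h5
    linarith

end Crest.Agent.Helper4
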